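import Vale.Agent.P183.R2.H668.KW.Spec

set_option autoImplicit false

/-!
Row C: lattice orders are coded by graphs without four-cycles (cover graph between two copies).
-/

namespace Vale.Agent.P183.R2.H212.KWC

open Vale.Agent.P183.R2.H668.KW

/-- The bipartite graph of a relation. -/
def gr {α : Type} (R : α → α → Prop) : SimpleGraph (α ⊕ α) where
  Adj a b := match a, b with
    | .inl x, .inr y => R x y
    | .inr y, .inl x => R x y
    | .inl _, .inl _ => False
    | .inr _, .inr _ => False
  symm := ⟨by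
    rintro (x | x) (y | y) h <;> exact h⟩
  loopless := ⟨by
    rintro (x | x) h <;> exact h⟩

theorem c4Free_gr {α : Type} [Lattice α] : C4Free (gr fun x y : α => x ⋖ y) := by
  rintro (a | a) (b | b) (p | p) (q | q) hne h1 h2 h3 h4
  any_goals exact h1.elim
  any_goals exact h2.elim
  any_goals exact h3.elim
  · have hab : a ≠ b := fun h => hne (congrArg _ h)
    change a ⋖ p at h1
    change b ⋖ p at h2
    change a ⋖ q at h3
    change b ⋖ q at h4
    exact congrArg _ ((WCovBy.sup_eq (CovBy.wcovBy h1) (CovBy.wcovBy h2) hab).symm.trans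
      (WCovBy.sup_eq (CovBy.wcovBy h3) (CovBy.wcovBy h4) hab))
  · have hab : a ≠ b := fun h => hne (congrArg _ h)
    change p ⋖ a at h1
    change p ⋖ b at h2
    change q ⋖ a at h3
    change q ⋖ b at h4
    exact congrArg _ ((WCovBy.inf_eq (CovBy.wcovBy h1) (CovBy.wcovBy h2) hab).symm.trans
      (WCovBy.inf_eq (CovBy.wcovBy h3) (CovBy.wcovBy h4) hab))

theorem le_iff {α : Type} [Finite α] [PartialOrder α] (x y : α) :
    x ≤ y ↔ Relation.ReflTransGen (fun a b : α => a ⋖ b) x y := by
  classical
  let _ : Fintype α := Fintype.ofFinite α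
  let _ : LocallyFiniteOrder α := Fintype.toLocallyFiniteOrder
  exact le_iff_reflTransGen_covBy

/-- The cover relation of a lattice structure. -/
def cov {α : Type} (L : Lattice α) (x y : α) : Prop := @CovBy α L.toLT x y

theorem le_iff' {α : Type} [Finite α] (L : Lattice α) (x y : α) :
    L.le x y ↔ Relation.ReflTransGen (cov L) x y :=
  @le_iff α _ L.toPartialOrder x y

theorem gr_inj {α : Type} {R S : α → α → Prop} (h : gr R = gr S) : R = S := by
  funext x y
  have h1 : (gr R).Adj (Sum.inl x) (Sum.inr y) = (gr S).Adj (Sum.inl x) (Sum.inr y) := by rw [h]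
  exact h1

theorem rowC : StC := by
  intro n κ _ Λ hΛ
  have h1 : ∀ i, C4Free (gr (cov (Λ i))) := fun i => @c4Free_gr (Fin n) (Λ i)
  have hf : Function.Injective (fun i : κ =>
      (⟨gr (cov (Λ i)), h1 i⟩ : {G : SimpleGraph (Fin n ⊕ Fin n) | C4Free G})) := by
    intro i j hij
    have h2 : cov (Λ i) = cov (Λ j) := gr_inj (congrArg Subtype.val hij)
    refine hΛ i j fun x y => ?_
    rw [le_iff' (Λ i), le_iff' (Λ j), h2]
  have h3 := Nat.card_le_card_of_injective _ hf
  rwa [Nat.card_coe_set_eq] at h3

end Vale.Agent.P183.R2.H212.KWC
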